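import Mathlib

namespace Vale.Agent.Results.P134.RankTwo

theorem cubic_zero {α : Type} {g : α → ℝ} (hg : (Set.range g).Infinite) {p q r s : ℝ}
    (h : ∀ t, p * g t ^ 3 + q * g t ^ 2 + r * g t + s = 0) : p = 0 ∧ q = 0 := by
  have h1 : (⟨p, q, r, s⟩ : Cubic ℝ).toPoly = 0 := by
    refine Polynomial.eq_zero_of_infinite_isRoot _ (hg.mono ?_)
    rintro _ ⟨t, rfl⟩
    simpa [Cubic.toPoly] using h t
  have h2 := (Cubic.toPoly_eq_zero_iff _).1 h1
  exact ⟨congrArg Cubic.a h2, congrArg Cubic.b h2⟩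

theorem d2 {f k : ℝ → ℝ} (hf : ContDiff ℝ 2 f) (hk : ContDiff ℝ 2 k) (c x : ℝ) :
    iteratedDeriv 2 (fun s => f s + c * k s) x = iteratedDeriv 2 f x + c * iteratedDeriv 2 k x := by
  have h1 : ContDiff ℝ 2 fun s => c * k s := contDiff_const.mul hk
  rw [← iteratedDeriv_const_mul_field]
  exact iteratedDeriv_add hf.contDiffAt h1.contDiffAt

theorem first (n : ℕ) (u : (Fin n → ℝ) × ℝ → ℝ) (hu : ContDiff ℝ 2 u)
    (heq : ∀ (y : Fin n → ℝ) (t : ℝ),
      ∑ i, iteratedDeriv 2 (fun s => u (Function.update y i s, t)) (y i) +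
        iteratedDeriv 2 (fun s => u (y, s)) t = u (y, t) ^ 3 - u (y, t))
    (hmono : ∀ (y : Fin n → ℝ) (t : ℝ), 0 < deriv (fun s => u (y, s)) t)
    (a b : (Fin n → ℝ) → ℝ) (g : ℝ → ℝ) (hsep : ∀ y t, u (y, t) = a y + b y * g t) :
    ∃ h : ℝ → ℝ, ∀ y t, u (y, t) = h t := by
  have hsm : ∀ y, StrictMono fun s => u (y, s) := fun y => strictMono_of_deriv_pos (hmono y)
  have hpos : ∀ y, 0 < u (y, 1) - u (y, 0) := fun y => sub_pos.2 (hsm y zero_lt_one)
  obtain ⟨l, hl⟩ : ∃ l : ℝ → ℝ, ∀ y t, u (y, t) = u (y, 0) + l t * (u (y, 1) - u (y, 0)) := by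
    have h1 : g 1 - g 0 ≠ 0 := fun h => by
      have h2 := hpos 0
      rw [hsep, hsep, sub_eq_zero.1 h, sub_self] at h2
      exact lt_irrefl _ h2
    refine ⟨fun t => (g t - g 0) / (g 1 - g 0), fun y t => ?_⟩
    rw [hsep, hsep, hsep]
    field_simp
    ring
  have hinj : Function.Injective l := fun s t h => (hsm 0).injective (by
    show u (0, s) = u (0, t)
    rw [hl 0 s, hl 0 t, h])
  have hlc : ContDiff ℝ 2 l := by
    have h1 : l = fun t => (u (0, t) - u (0, 0)) / (u (0, 1) - u (0, 0)) := funext fun t => by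
      rw [eq_div_iff (hpos 0).ne', hl 0 t]
      ring
    rw [h1]
    exact ((hu.comp (contDiff_const.prodMk contDiff_id)).sub contDiff_const).div_const _
  have key : ∀ y, ∃ A B : ℝ, ∀ t, iteratedDeriv 2 l t = (u (y, 1) - u (y, 0)) ^ 2 * l t ^ 3 +
      3 * u (y, 0) * (u (y, 1) - u (y, 0)) * l t ^ 2 + A * l t + B := by
    intro y
    have hc : ∀ i t, ContDiff ℝ 2 fun s => u (Function.update y i s, t) := fun i t =>
      hu.comp ((contDiff_update 2 y i).prodMk contDiff_const)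
    obtain ⟨P, Q, hPQ⟩ : ∃ P Q : ℝ, ∀ t,
        ∑ i, iteratedDeriv 2 (fun s => u (Function.update y i s, t)) (y i) = P + l t * Q := by
      refine ⟨∑ i, iteratedDeriv 2 (fun s => u (Function.update y i s, 0)) (y i),
        ∑ i, iteratedDeriv 2
          (fun s => u (Function.update y i s, 1) - u (Function.update y i s, 0)) (y i), fun t => ?_⟩
      rw [Finset.mul_sum, ← Finset.sum_add_distrib]
      refine Finset.sum_congr rfl fun i _ => ?_
      rw [← d2 (hc i 0) ((hc i 1).sub (hc i 0))]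
      exact congrArg (fun f => iteratedDeriv 2 f (y i)) (funext fun s => hl _ t)
    have h2 : ∀ t, iteratedDeriv 2 (fun s => u (y, s)) t =
        (u (y, 1) - u (y, 0)) * iteratedDeriv 2 l t := fun t => by
      have h3 := d2 (contDiff_const (c := u (y, 0))) hlc (u (y, 1) - u (y, 0)) t
      rw [iteratedDeriv_const, if_neg two_ne_zero, zero_add] at h3
      rw [← h3]
      exact congrArg (fun f => iteratedDeriv 2 f t) (funext fun s => by rw [hl y s, mul_comm])
    refine ⟨3 * u (y, 0) ^ 2 - 1 - Q / (u (y, 1) - u (y, 0)),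
      (u (y, 0) ^ 3 - u (y, 0) - P) / (u (y, 1) - u (y, 0)), fun t => ?_⟩
    have h4 := heq y t
    rw [hPQ, h2, hl y t] at h4
    have h5 := (hpos y).ne'
    generalize u (y, 1) - u (y, 0) = β at h4 h5
    field_simp
    linear_combination h4
  refine ⟨fun t => u (0, t), fun y t => ?_⟩
  obtain ⟨A, B, h1⟩ := key y
  obtain ⟨A', B', h2⟩ := key 0
  obtain ⟨h3, h4⟩ := cubic_zero (Set.infinite_range_of_injective hinj)
    (p := (u (y, 1) - u (y, 0)) ^ 2 - (u (0, 1) - u (0, 0)) ^ 2)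
    (q := 3 * u (y, 0) * (u (y, 1) - u (y, 0)) - 3 * u (0, 0) * (u (0, 1) - u (0, 0)))
    (r := A - A') (s := B - B') fun t => by linear_combination h2 t - h1 t
  have h5 : u (y, 1) - u (y, 0) = u (0, 1) - u (0, 0) :=
    (pow_left_inj₀ (hpos y).le (hpos 0).le two_ne_zero).1 (sub_eq_zero.1 h3)
  rw [h5] at h4
  have h6 : u (y, 0) = u (0, 0) :=
    mul_right_cancel₀ (hpos 0).ne' (by linarith)
  show u (y, t) = u (0, t)
  rw [hl y t, hl 0 t, h5, h6]

theorem second (n : ℕ) (u : (Fin n → ℝ) × ℝ → ℝ) (hu : ContDiff ℝ 2 u)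
    (heq : ∀ (y : Fin n → ℝ) (t : ℝ),
      ∑ i, iteratedDeriv 2 (fun s => u (Function.update y i s, t)) (y i) +
        iteratedDeriv 2 (fun s => u (y, s)) t = u (y, t) ^ 3 - u (y, t))
    (hmono : ∀ (y : Fin n → ℝ) (t : ℝ), 0 < deriv (fun s => u (y, s)) t)
    (a b : ℝ → ℝ) (f : (Fin n → ℝ) → ℝ) (hsep : ∀ y t, u (y, t) = a t + b t * f y) :
    ∃ h : ℝ → ℝ, ∀ y t, u (y, t) = h t := by
  have hsm : ∀ y, StrictMono fun s => u (y, s) := fun y => strictMono_of_deriv_pos (hmono y)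
  have main : ∀ y0 y1 t0, ¬ u (y0, t0) < u (y1, t0) := by
    intro y0 y1 t0 hlt
    have hb : b t0 ≠ 0 := fun h => by
      rw [hsep, hsep, h, zero_mul, zero_mul] at hlt
      exact lt_irrefl _ hlt
    have hd := (sub_pos.2 hlt).ne'
    obtain ⟨α, β, hαβ⟩ : ∃ α β : ℝ → ℝ, ∀ y t, u (y, t) = α t + u (y, t0) * β t := by
      refine ⟨fun t => a t - a t0 * (b t / b t0), fun t => b t / b t0, fun y t => ?_⟩
      rw [hsep, hsep]
      field_simp
      ring
    have hv : ∀ y, ContDiff ℝ 2 fun s => u (y, s) := fun y =>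
      hu.comp (contDiff_const.prodMk contDiff_id)
    have hβ : β = fun t => (u (y1, t) - u (y0, t)) / (u (y1, t0) - u (y0, t0)) := funext fun t => by
      rw [eq_div_iff hd, hαβ y1 t, hαβ y0 t]
      ring
    have hβc : ContDiff ℝ 2 β := by
      rw [hβ]
      exact ((hv y1).sub (hv y0)).div_const _
    have hβ0 : β t0 = 1 := by
      rw [hβ]
      exact div_self hd
    have hαc : ContDiff ℝ 2 α := by
      have h1 : α = fun t => u (y0, t) - u (y0, t0) * β t := funext fun t => by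
        rw [hαβ y0 t]
        ring
      rw [h1]
      exact (hv y0).sub (contDiff_const.mul hβc)
    have hinf : (Set.range fun y => u (y, t0)).Infinite :=
      (Set.Icc_infinite hlt).mono (intermediate_value_univ y0 y1
        (hu.continuous.comp (continuous_id.prodMk continuous_const)))
    obtain ⟨t, ht1, ht2⟩ : ∃ t, 0 < β t ∧ t ≠ t0 := by
      have h1 : ∀ᶠ t in nhds t0, 0 < β t :=
        hβc.continuous.continuousAt.eventually (lt_mem_nhds (by rw [hβ0]; exact zero_lt_one))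
      exact ((h1.filter_mono nhdsWithin_le_nhds).and (self_mem_nhdsWithin (s := {t0}ᶜ))).exists
    have h2 : ∀ y r, iteratedDeriv 2 (fun s => u (y, s)) r =
        iteratedDeriv 2 α r + u (y, t0) * iteratedDeriv 2 β r := fun y r => by
      rw [← d2 hαc hβc]
      exact congrArg (fun k => iteratedDeriv 2 k r) (funext fun s => hαβ y s)
    have h3 : ∀ y, ∑ i, iteratedDeriv 2 (fun s => u (Function.update y i s, t)) (y i) =
        β t * ∑ i, iteratedDeriv 2 (fun s => u (Function.update y i s, t0)) (y i) := fun y => by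
      rw [Finset.mul_sum]
      refine Finset.sum_congr rfl fun i _ => ?_
      have h4 := d2 (contDiff_const (c := α t))
        (hu.comp ((contDiff_update 2 y i).prodMk (contDiff_const (c := t0)))) (β t) (y i)
      rw [iteratedDeriv_const, if_neg two_ne_zero, zero_add] at h4
      refine Eq.trans ?_ h4
      exact congrArg (fun k => iteratedDeriv 2 k (y i)) (funext fun s => by
        rw [hαβ _ t, mul_comm]
        rfl)
    obtain ⟨h5, h6⟩ := cubic_zero hinf (p := β t ^ 3 - β t) (q := 3 * α t * β t ^ 2)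
      (r := 3 * α t ^ 2 * β t + β t * iteratedDeriv 2 β t0 - iteratedDeriv 2 β t)
      (s := α t ^ 3 - α t + β t * iteratedDeriv 2 α t0 - iteratedDeriv 2 α t) fun y => by
        have e1 := heq y t
        have e2 := heq y t0
        rw [h3, h2, hαβ y t] at e1
        rw [h2] at e2
        linear_combination β t * e2 - e1
    have h7 : β t = 1 := by
      have h8 : β t * (β t + 1) * (β t - 1) = 0 := by linear_combination h5
      exact sub_eq_zero.1 ((mul_eq_zero.1 h8).resolve_left (by positivity))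
    rw [h7] at h6
    refine ht2 ((hsm y0).injective ?_)
    show u (y0, t) = u (y0, t0)
    rw [hαβ y0 t, h7]
    linarith
  exact ⟨fun t => u (0, t), fun y t => le_antisymm (not_lt.1 (main 0 y t)) (not_lt.1 (main y 0 t))⟩

theorem result (n : ℕ) (u : (Fin n → ℝ) × ℝ → ℝ) (hu : ContDiff ℝ 2 u)
    (heq : ∀ (y : Fin n → ℝ) (t : ℝ),
      ∑ i, iteratedDeriv 2 (fun s => u (Function.update y i s, t)) (y i) +
        iteratedDeriv 2 (fun s => u (y, s)) t = u (y, t) ^ 3 - u (y, t))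
    (hmono : ∀ (y : Fin n → ℝ) (t : ℝ), 0 < deriv (fun s => u (y, s)) t)
    (hsep : (∃ (a b : (Fin n → ℝ) → ℝ) (g : ℝ → ℝ), ∀ y t, u (y, t) = a y + b y * g t) ∨
      ∃ (a b : ℝ → ℝ) (f : (Fin n → ℝ) → ℝ), ∀ y t, u (y, t) = a t + b t * f y) :
    ∃ h : ℝ → ℝ, ∀ y t, u (y, t) = h t := by
  rcases hsep with ⟨a, b, g, h⟩ | ⟨a, b, f, h⟩
  · exact first n u hu heq hmono a b g h
  · exact second n u hu heq hmono a b f h

end Vale.Agent.Results.P134.RankTwo
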